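import Mathlib

/-! Site-wise superoperators on `n` sites. -/

open Matrix Kronecker
open scoped ComplexOrder

set_option linter.unusedSectionVars false

namespace Vale.Agent.P372.H337

variable {ι D : Type} [Fintype ι] [DecidableEq ι] [Fintype D] [DecidableEq D]

/-- product operator -/
def pt (K : ι → Matrix D D ℂ) : Matrix (ι → D) (ι → D) ℂ := fun f g => ∏ i, K i (f i) (g i)

/-- product superoperator -/
def app (Φ : ι → Matrix (D × D) (D × D) ℂ) (M : Matrix (ι → D) (ι → D) ℂ) :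
    Matrix (ι → D) (ι → D) ℂ :=
  fun f g => ∑ h : ι → D × D, (∏ i, Φ i (f i, g i) (h i)) * M (fun i => (h i).1) (fun i => (h i).2)

/-- product functional -/
def fn (v : ι → D × D → ℂ) (M : Matrix (ι → D) (ι → D) ℂ) : ℂ :=
  ∑ h : ι → D × D, (∏ i, v i (h i)) * M (fun i => (h i).1) (fun i => (h i).2)

theorem app_app (Φ Ψ : ι → Matrix (D × D) (D × D) ℂ) (M : Matrix (ι → D) (ι → D) ℂ) :
    app Φ (app Ψ M) = app (fun i => Φ i * Ψ i) M := by
  ext f g
  simp only [app, Matrix.mul_apply, Finset.mul_sum]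
  rw [Finset.sum_comm]
  refine Finset.sum_congr rfl fun k _ => ?_
  rw [Finset.prod_univ_sum, Fintype.piFinset_univ, Finset.sum_mul]
  refine Finset.sum_congr rfl fun h _ => ?_
  rw [Finset.prod_mul_distrib]
  ring

theorem fn_app (v : ι → D × D → ℂ) (Φ : ι → Matrix (D × D) (D × D) ℂ)
    (M : Matrix (ι → D) (ι → D) ℂ) :
    fn v (app Φ M) = fn (fun i => v i ᵥ* Φ i) M := by
  simp only [app, fn, Matrix.vecMul, dotProduct, Finset.mul_sum]
  rw [Finset.sum_comm]
  refine Finset.sum_congr rfl fun k _ => ?_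
  rw [Finset.prod_univ_sum, Fintype.piFinset_univ, Finset.sum_mul]
  refine Finset.sum_congr rfl fun h _ => ?_
  rw [Finset.prod_mul_distrib]
  ring

theorem app_sum {σ : ι → Type} [∀ i, Fintype (σ i)]
    (Φ : ∀ i, σ i → Matrix (D × D) (D × D) ℂ) (M : Matrix (ι → D) (ι → D) ℂ) :
    app (fun i => ∑ s, Φ i s) M = ∑ s : ∀ i, σ i, app (fun i => Φ i (s i)) M := by
  ext f g
  simp only [app, Matrix.sum_apply]
  rw [Finset.sum_comm]
  refine Finset.sum_congr rfl fun k _ => ?_
  rw [Finset.prod_univ_sum, Fintype.piFinset_univ, Finset.sum_mul]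

theorem fn_sum {σ : ι → Type} [∀ i, Fintype (σ i)]
    (v : ∀ i, σ i → D × D → ℂ) (M : Matrix (ι → D) (ι → D) ℂ) :
    fn (fun i => ∑ s, v i s) M = ∑ s : ∀ i, σ i, fn (fun i => v i (s i)) M := by
  simp only [fn, Finset.sum_apply]
  rw [Finset.sum_comm]
  refine Finset.sum_congr rfl fun k _ => ?_
  rw [Finset.prod_univ_sum, Fintype.piFinset_univ, Finset.sum_mul]

theorem app_add (Φ : ι → Matrix (D × D) (D × D) ℂ) (M N : Matrix (ι → D) (ι → D) ℂ) :
    app Φ (M + N) = app Φ M + app Φ N := by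
  ext f g
  simp only [app, Matrix.add_apply, mul_add, Finset.sum_add_distrib]

theorem app_smul (Φ : ι → Matrix (D × D) (D × D) ℂ) (c : ℂ) (M : Matrix (ι → D) (ι → D) ℂ) :
    app Φ (c • M) = c • app Φ M := by
  ext f g
  simp only [app, Matrix.smul_apply, smul_eq_mul, Finset.mul_sum]
  exact Finset.sum_congr rfl fun h _ => by ring

theorem app_fsum {κ : Type} (s : Finset κ) (Φ : ι → Matrix (D × D) (D × D) ℂ)
    (M : κ → Matrix (ι → D) (ι → D) ℂ) :
    app Φ (∑ k ∈ s, M k) = ∑ k ∈ s, app Φ (M k) := by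
  classical
  induction s using Finset.induction_on with
  | empty =>
    ext f g
    simp [app]
  | insert a s ha ih => rw [Finset.sum_insert ha, Finset.sum_insert ha, app_add, ih]

theorem fn_add (v : ι → D × D → ℂ) (M N : Matrix (ι → D) (ι → D) ℂ) :
    fn v (M + N) = fn v M + fn v N := by
  simp only [fn, Matrix.add_apply, mul_add, Finset.sum_add_distrib]

theorem fn_fsum {κ : Type} (s : Finset κ) (v : ι → D × D → ℂ)
    (M : κ → Matrix (ι → D) (ι → D) ℂ) :
    fn v (∑ k ∈ s, M k) = ∑ k ∈ s, fn v (M k) := by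
  classical
  induction s using Finset.induction_on with
  | empty => simp [fn]
  | insert a s ha ih => rw [Finset.sum_insert ha, Finset.sum_insert ha, fn_add, ih]

/-- sum over pairs of configurations -/
theorem sum_pair (F : (ι → D) → (ι → D) → ℂ) :
    ∑ h : ι → D × D, F (fun i => (h i).1) (fun i => (h i).2) = ∑ f : ι → D, ∑ g : ι → D, F f g := by
  rw [← Fintype.sum_prod_type']
  exact Fintype.sum_equiv (Equiv.arrowProdEquivProdArrow ι (fun _ => D) (fun _ => D)) _ _
    fun h => rfl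

/-- the functional of an operator -/
def tv (V : Matrix D D ℂ) : D × D → ℂ := fun c => V c.2 c.1

theorem trace_pt_mul (V : ι → Matrix D D ℂ) (M : Matrix (ι → D) (ι → D) ℂ) :
    (pt V * M).trace = fn (fun i => tv (V i)) M := by
  simp only [Matrix.trace, Matrix.diag, Matrix.mul_apply, pt, fn, tv]
  rw [sum_pair (fun f g => (∏ i, V i (g i) (f i)) * M f g), Finset.sum_comm]

theorem app_conj (K : ι → Matrix D D ℂ) (M : Matrix (ι → D) (ι → D) ℂ) :
    app (fun i => K i ⊗ₖ (K i).map star) M = pt K * M * (pt K)ᴴ := by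
  ext f g
  simp only [app, pt, Matrix.mul_apply, Matrix.conjTranspose_apply, Matrix.kroneckerMap_apply,
    Matrix.map_apply, Finset.sum_mul]
  rw [Finset.sum_comm, ← sum_pair (fun a b => (∏ i, K i (f i) (a i)) * M a b *
    star (∏ i, K i (g i) (b i)))]
  refine Finset.sum_congr rfl fun h _ => ?_
  rw [Finset.prod_mul_distrib, star_prod]
  ring

/-- completely positive site superoperator -/
def CP (Φ : Matrix (D × D) (D × D) ℂ) : Prop :=
  ∃ (κ : Type) (_ : Fintype κ) (K : κ → Matrix D D ℂ), Φ = ∑ k, K k ⊗ₖ (K k).map star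

theorem app_kraus (Φ : ι → Matrix (D × D) (D × D) ℂ) (h : ∀ i, CP (Φ i)) :
    ∃ (κ : Type) (_ : Fintype κ) (L : κ → Matrix (ι → D) (ι → D) ℂ),
      ∀ M, app Φ M = ∑ k, L k * M * (L k)ᴴ := by
  classical
  choose κ hκ K hK using h
  refine ⟨∀ i, κ i, inferInstance, fun k => pt (fun i => K i (k i)), fun M => ?_⟩
  have h1 : Φ = fun i => ∑ k, K i k ⊗ₖ (K i k).map star := funext hK
  rw [h1, app_sum]
  exact Finset.sum_congr rfl fun k _ => app_conj _ _

/-- block positivity is preserved -/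
theorem block_app (Φ : ι → Matrix (D × D) (D × D) ℂ) (h : ∀ i, CP (Φ i))
    {X Y W W' : Matrix (ι → D) (ι → D) ℂ} (hb : (fromBlocks X W W' Y).PosSemidef) :
    (fromBlocks (app Φ X) (app Φ W) (app Φ W') (app Φ Y)).PosSemidef := by
  obtain ⟨κ, hκ, L, hL⟩ := app_kraus Φ h
  have h1 : fromBlocks (app Φ X) (app Φ W) (app Φ W') (app Φ Y) =
      ∑ k, fromBlocks (L k) 0 0 (L k) * fromBlocks X W W' Y * (fromBlocks (L k) 0 0 (L k))ᴴ := by
    have h2 : ∀ k, fromBlocks (L k) 0 0 (L k) * fromBlocks X W W' Y *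
        (fromBlocks (L k) 0 0 (L k))ᴴ = fromBlocks (L k * X * (L k)ᴴ) (L k * W * (L k)ᴴ)
          (L k * W' * (L k)ᴴ) (L k * Y * (L k)ᴴ) := by
      intro k
      rw [fromBlocks_conjTranspose, fromBlocks_multiply, fromBlocks_multiply]
      simp
    simp only [h2, hL]
    ext (p | p) (q | q) <;> simp [Matrix.sum_apply]
  rw [h1]
  refine Matrix.posSemidef_sum _ fun k _ => ?_
  exact hb.mul_mul_conjTranspose_same _

theorem isHermitian_app (Φ : ι → Matrix (D × D) (D × D) ℂ) (h : ∀ i, CP (Φ i))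
    {X : Matrix (ι → D) (ι → D) ℂ} (hX : X.IsHermitian) : (app Φ X).IsHermitian := by
  obtain ⟨κ, hκ, L, hL⟩ := app_kraus Φ h
  rw [hL, IsHermitian, conjTranspose_sum]
  refine Finset.sum_congr rfl fun k _ => ?_
  rw [conjTranspose_mul, conjTranspose_mul, conjTranspose_conjTranspose, hX.eq, Matrix.mul_assoc]

theorem posSemidef_app (Φ : ι → Matrix (D × D) (D × D) ℂ) (h : ∀ i, CP (Φ i))
    {X : Matrix (ι → D) (ι → D) ℂ} (hX : X.PosSemidef) : (app Φ X).PosSemidef := by
  obtain ⟨κ, hκ, L, hL⟩ := app_kraus Φ h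
  rw [hL]
  exact Matrix.posSemidef_sum _ fun k _ => hX.mul_mul_conjTranspose_same _

end Vale.Agent.P372.H337
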