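import Vale.Agent.P372.H337.App

/-! The hybrid identity in closed form. -/

open Matrix Kronecker
open scoped ComplexOrder MatrixOrder

set_option linter.unusedSectionVars false

namespace Vale.Agent.P372.H337

variable {ι D : Type} [Fintype ι] [DecidableEq ι] [Fintype D] [DecidableEq D]

theorem fn_smul (c : ι → ℂ) (v : ι → D × D → ℂ) (M : Matrix (ι → D) (ι → D) ℂ) :
    fn (fun i => c i • v i) M = (∏ i, c i) * fn v M := by
  simp only [fn, Pi.smul_apply, smul_eq_mul, Finset.prod_mul_distrib, Finset.mul_sum, mul_assoc]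

theorem app_smul_site (c : ι → ℂ) (Φ : ι → Matrix (D × D) (D × D) ℂ)
    (M : Matrix (ι → D) (ι → D) ℂ) :
    app (fun i => c i • Φ i) M = (∏ i, c i) • app Φ M := by
  ext f g
  simp only [app, Matrix.smul_apply, smul_eq_mul, Finset.prod_mul_distrib, Finset.mul_sum,
    mul_assoc]

theorem app_one (M : Matrix (ι → D) (ι → D) ℂ) :
    app (fun _ : ι => (1 : Matrix (D × D) (D × D) ℂ)) M = M := by
  have h : (fun _ : ι => (1 : Matrix (D × D) (D × D) ℂ)) =
      fun i => (fun _ : ι => (1 : Matrix D D ℂ)) i ⊗ₖ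
        ((fun _ : ι => (1 : Matrix D D ℂ)) i).map star := by
    funext i
    simp
  have h1 : pt (fun _ : ι => (1 : Matrix D D ℂ)) = 1 := by
    ext f g
    by_cases hfg : f = g
    · subst hfg
      simp [pt]
    · rw [Matrix.one_apply_ne hfg]
      obtain ⟨i, hi⟩ := Function.ne_iff.mp hfg
      exact Finset.prod_eq_zero (Finset.mem_univ i) (Matrix.one_apply_ne hi)
  rw [h, app_conj, h1]
  simp

/-- the map `X ↦ v(X) 1 / d` -/
noncomputable def rv (v : D × D → ℂ) : Matrix (D × D) (D × D) ℂ := fun p q =>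
  (if p.1 = p.2 then ((Fintype.card D : ℂ))⁻¹ else 0) * v q

/-- the map `X ↦ tr(G X) 1 / d` -/
noncomputable def rs (G : Matrix D D ℂ) : Matrix (D × D) (D × D) ℂ := rv (tv G)

theorem rv_mul (v : D × D → ℂ) (Ψ : Matrix (D × D) (D × D) ℂ) : rv v * Ψ = rv (v ᵥ* Ψ) := by
  ext p q
  simp only [rv, Matrix.mul_apply, Matrix.vecMul, dotProduct, Finset.mul_sum, mul_assoc]

theorem vecMul_rv (v w : D × D → ℂ) :
    v ᵥ* rv w = ((∑ c : D, v (c, c)) * ((Fintype.card D : ℂ))⁻¹) • w := by
  funext q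
  simp only [rv, Matrix.vecMul, dotProduct, Pi.smul_apply, smul_eq_mul]
  rw [Fintype.sum_prod_type]
  have h : ∀ x : D, ∑ y : D, v (x, y) * ((if (x, y).1 = (x, y).2 then
      ((Fintype.card D : ℂ))⁻¹ else 0) * w q) = v (x, x) * ((Fintype.card D : ℂ))⁻¹ * w q := by
    intro x
    rw [Finset.sum_eq_single x]
    · simp [mul_assoc]
    · intro y _ hy
      simp [Ne.symm hy]
    · simp
  rw [Finset.sum_congr rfl fun x _ => h x, ← Finset.sum_mul, ← Finset.sum_mul]

theorem tv_add (V W : Matrix D D ℂ) : tv (V + W) = tv V + tv W := rfl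

theorem tv_smul (c : ℂ) (V : Matrix D D ℂ) : tv (c • V) = c • tv V := rfl

theorem sum_tv_one : ∑ c : D, tv (1 : Matrix D D ℂ) (c, c) = (Fintype.card D : ℂ) := by
  simp [tv]

theorem vecMul_one_rv [Nonempty D] (w : D × D → ℂ) : tv (1 : Matrix D D ℂ) ᵥ* rv w = w := by
  rw [vecMul_rv, sum_tv_one, mul_inv_cancel₀, one_smul]
  exact Nat.cast_ne_zero.mpr Fintype.card_ne_zero

theorem rv_add (v w : D × D → ℂ) : rv (v + w) = rv v + rv w := by
  ext p q
  simp [rv, mul_add]

theorem rv_smul (c : ℂ) (v : D × D → ℂ) : rv (c • v) = c • rv v := by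
  ext p q
  simp only [rv, Pi.smul_apply, smul_eq_mul, Matrix.smul_apply]
  ring

theorem CP_one : CP (1 : Matrix (D × D) (D × D) ℂ) :=
  ⟨Unit, inferInstance, fun _ => 1, by simp⟩

theorem CP_zero : CP (0 : Matrix (D × D) (D × D) ℂ) :=
  ⟨Empty, inferInstance, fun _ => 1, by simp⟩

theorem CP.smul {Φ : Matrix (D × D) (D × D) ℂ} (h : CP Φ) {c : ℝ} (hc : 0 ≤ c) :
    CP ((c : ℂ) • Φ) := by
  obtain ⟨κ, hκ, K, rfl⟩ := h
  refine ⟨κ, hκ, fun k => ((√c : ℝ) : ℂ) • K k, ?_⟩
  rw [Finset.smul_sum]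
  refine Finset.sum_congr rfl fun k _ => ?_
  ext p q
  simp only [Matrix.smul_apply, Matrix.kroneckerMap_apply, Matrix.map_apply, smul_eq_mul, star_mul']
  have h1 : ((√c : ℝ) : ℂ) * star ((√c : ℝ) : ℂ) = (c : ℂ) := by
    rw [Complex.star_def, Complex.conj_ofReal, ← Complex.ofReal_mul, Real.mul_self_sqrt hc]
  rw [← h1]
  ring

theorem CP_rs {G : Matrix D D ℂ} (hG : G.PosSemidef) : CP (rs G) := by
  obtain ⟨B, hB⟩ := CStarAlgebra.nonneg_iff_eq_star_mul_self.mp hG.nonneg
  rw [star_eq_conjTranspose] at hB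
  refine ⟨D × D, inferInstance, fun k => ((√((Fintype.card D : ℝ)⁻¹) : ℝ) : ℂ) •
    (Matrix.single k.2 k.1 (1 : ℂ) * B), ?_⟩
  ext p q
  have h1 : ((√((Fintype.card D : ℝ)⁻¹) : ℝ) : ℂ) * star ((√((Fintype.card D : ℝ)⁻¹) : ℝ) : ℂ) =
      ((Fintype.card D : ℂ))⁻¹ := by
    rw [Complex.star_def, Complex.conj_ofReal, ← Complex.ofReal_mul,
      Real.mul_self_sqrt (by positivity)]
    push_cast
    rfl
  rw [Matrix.sum_apply]
  simp only [Matrix.smul_apply, Matrix.kroneckerMap_apply, Matrix.map_apply, smul_eq_mul]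
  have h3 : ∀ (x y i j : D), (Matrix.single x y (1 : ℂ) * B) i j = if i = x then B y j else 0 := by
    intro x y i j
    rw [Matrix.mul_apply]
    rw [Finset.sum_eq_single y]
    · by_cases h : i = x
      · subst h
        simp
      · rw [Matrix.single_apply_of_ne, zero_mul, if_neg h]
        tauto
    · intro b _ hb
      rw [Matrix.single_apply_of_ne, zero_mul]
      tauto
    · simp
  simp only [h3]
  rw [Fintype.sum_prod_type]
  simp only [rs, rv, tv, hB, Matrix.mul_apply, Matrix.conjTranspose_apply]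
  rw [Finset.mul_sum]
  refine Finset.sum_congr rfl fun y _ => ?_
  rw [Finset.sum_eq_single p.1]
  · by_cases h : p.1 = p.2
    · rw [if_pos rfl, if_pos h, if_pos h.symm, ← h1]
      simp only [star_mul']
      ring
    · rw [if_pos rfl, if_neg h, if_neg (Ne.symm h)]
      simp
  · intro x _ hx
    rw [if_neg (Ne.symm hx)]
    simp
  · simp

section key

variable (Rh : Matrix D D ℂ)

/-- active / inactive -/
noncomputable def ka (u : Bool) : Matrix (D × D) (D × D) ℂ := if u then rs Rh else 1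

/-- the reset -/
noncomputable def kr (t : Bool) : Matrix (D × D) (D × D) ℂ := if t then 1 else rs 1

/-- the mixing -/
noncomputable def km (t u : Bool) : Matrix (D × D) (D × D) ℂ :=
  if t then (if u then 0 else 1) else ((1 / 2 : ℝ) : ℂ) • (if u then 1 else rs ((2 : ℂ) • 1 - Rh))

/-- the weights -/
noncomputable def kp (u : Bool) : ℝ := if u then 1 / 3 else 2 / 3

/-- the observables -/
noncomputable def kv (t : Bool) : Matrix D D ℂ := if t then Rh else 1

theorem km_ka (t : Bool) : ∑ u, km Rh t u * ka Rh u = kr t := by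
  rw [Fintype.sum_bool]
  cases t
  · simp only [km, ka, kr, if_true, Bool.false_eq_true, if_false, mul_one, one_mul,
      Matrix.smul_mul]
    rw [← smul_add, rs, rs, ← rv_add, ← tv_add, add_sub_cancel, tv_smul, rv_smul, smul_smul]
    norm_num
    rfl
  · simp [km, ka, kr]

theorem kv_km [Nonempty D] (u : Bool) :
    ∑ t, (((kp t : ℝ) : ℂ) • tv (kv Rh t)) ᵥ* km Rh t u =
      ((kp u : ℝ) : ℂ) • tv (1 : Matrix D D ℂ) := by
  rw [Fintype.sum_bool]
  cases u
  · simp only [km, kv, kp, if_true, Bool.false_eq_true, if_false, Matrix.vecMul_one,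
      Matrix.vecMul_smul, Matrix.smul_vecMul, rs, vecMul_one_rv]
    funext c
    simp only [Pi.add_apply, Pi.smul_apply, smul_eq_mul, tv, Matrix.sub_apply, Matrix.smul_apply]
    push_cast
    ring
  · simp only [km, kv, kp, if_true, Bool.false_eq_true, if_false, Matrix.vecMul_zero, zero_add,
      Matrix.vecMul_smul, Matrix.vecMul_one]
    funext c
    simp only [Pi.smul_apply, smul_eq_mul]
    push_cast
    ring

theorem CP_km (h2 : ((2 : ℂ) • 1 - Rh).PosSemidef) (t u : Bool) : CP (km Rh t u) := by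
  cases t
  · simp only [km, Bool.false_eq_true, if_false]
    refine CP.smul ?_ (by norm_num)
    cases u
    · simpa using CP_rs h2
    · simpa using CP_one
  · cases u
    · simpa [km] using CP_one
    · simpa [km] using CP_zero

/-- **The hybrid identity.** -/
theorem key [Nonempty D] (h2 : ((2 : ℂ) • 1 - Rh).PosSemidef)
    (X Y : Matrix (ι → D) (ι → D) ℂ) (Z : (ι → Bool) → Matrix (ι → D) (ι → D) ℂ)
    (hZ : ∀ u, (Z u).IsHermitian)
    (hb : ∀ u : ι → Bool, (fromBlocks (app (fun i => ka Rh (u i)) X) (Z u) (Z u)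
      (app (fun i => ka Rh (u i)) Y)).PosSemidef) :
    ∃ Z' : (ι → Bool) → Matrix (ι → D) (ι → D) ℂ, (∀ t, (Z' t).IsHermitian) ∧
      (∀ t : ι → Bool, (fromBlocks (app (fun i => kr (t i)) X) (Z' t) (Z' t)
        (app (fun i => kr (t i)) Y)).PosSemidef) ∧
      ∑ t : ι → Bool, ((∏ i, kp (t i) : ℝ) : ℂ) * (pt (fun i => kv Rh (t i)) * Z' t).trace =
        ∑ u : ι → Bool, ((∏ i, kp (u i) : ℝ) : ℂ) * (Z u).trace := by
  have hcp : ∀ (t u : ι → Bool) (i : ι), CP (km Rh (t i) (u i)) := fun t u i => CP_km Rh h2 _ _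
  have hsum : ∀ (t : ι → Bool) (M : Matrix (ι → D) (ι → D) ℂ),
      ∑ u : ι → Bool, app (fun i => km Rh (t i) (u i)) (app (fun i => ka Rh (u i)) M) =
        app (fun i => kr (t i)) M := by
    intro t M
    simp only [app_app]
    rw [← app_sum (σ := fun _ => Bool) (fun i u => km Rh (t i) u * ka Rh u)]
    simp only [km_ka]
  refine ⟨fun t => ∑ u : ι → Bool, app (fun i => km Rh (t i) (u i)) (Z u), fun t => ?_,
    fun t => ?_, ?_⟩
  · rw [IsHermitian, conjTranspose_sum]
    exact Finset.sum_congr rfl fun u _ => (isHermitian_app _ (hcp t u) (hZ u)).eq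
  · rw [← hsum t X, ← hsum t Y]
    have h3 : fromBlocks
        (∑ u : ι → Bool, app (fun i => km Rh (t i) (u i)) (app (fun i => ka Rh (u i)) X))
        (∑ u : ι → Bool, app (fun i => km Rh (t i) (u i)) (Z u))
        (∑ u : ι → Bool, app (fun i => km Rh (t i) (u i)) (Z u))
        (∑ u : ι → Bool, app (fun i => km Rh (t i) (u i)) (app (fun i => ka Rh (u i)) Y)) =
        ∑ u : ι → Bool, fromBlocks
          (app (fun i => km Rh (t i) (u i)) (app (fun i => ka Rh (u i)) X))
          (app (fun i => km Rh (t i) (u i)) (Z u)) (app (fun i => km Rh (t i) (u i)) (Z u))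
          (app (fun i => km Rh (t i) (u i)) (app (fun i => ka Rh (u i)) Y)) := by
      ext (p | p) (q | q) <;> simp [Matrix.sum_apply]
    rw [h3]
    exact Matrix.posSemidef_sum _ fun u _ => block_app _ (hcp t u) (hb u)
  · have h4 : ∀ t : ι → Bool, ((∏ i, kp (t i) : ℝ) : ℂ) *
        (pt (fun i => kv Rh (t i)) * ∑ u : ι → Bool, app (fun i => km Rh (t i) (u i)) (Z u)).trace =
        ∑ u : ι → Bool, fn (fun i => (((kp (t i) : ℝ) : ℂ) • tv (kv Rh (t i))) ᵥ*
          km Rh (t i) (u i)) (Z u) := by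
      intro t
      rw [trace_pt_mul, fn_fsum, Finset.mul_sum]
      refine Finset.sum_congr rfl fun u _ => ?_
      rw [← fn_app, fn_smul]
      push_cast
      rfl
    rw [Finset.sum_congr rfl fun t _ => h4 t, Finset.sum_comm]
    refine Finset.sum_congr rfl fun u _ => ?_
    rw [← fn_sum (σ := fun _ => Bool) (fun i t => (((kp t : ℝ) : ℂ) • tv (kv Rh t)) ᵥ*
      km Rh t (u i))]
    simp only [kv_km]
    rw [fn_smul, ← trace_pt_mul]
    have h5 : pt (fun _ : ι => (1 : Matrix D D ℂ)) = 1 := by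
      ext f g
      by_cases hfg : f = g
      · subst hfg
        simp [pt]
      · rw [Matrix.one_apply_ne hfg]
        obtain ⟨i, hi⟩ := Function.ne_iff.mp hfg
        exact Finset.prod_eq_zero (Finset.mem_univ i) (Matrix.one_apply_ne hi)
    rw [h5, one_mul]
    push_cast
    rfl

end key

end Vale.Agent.P372.H337
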