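import Vale.Agent.P372.H337.Sites
import Vale.Agent.P372.H740.Scale
import Vale.Agent.P372.H405.Corner
import Vale.Agent.P372.Swap.Core

/-! The merge: the corner inequality for all numbers of copies. -/

open Matrix Kronecker Filter Topology
open scoped ComplexOrder MatrixOrder

set_option linter.unusedSectionVars false

namespace Vale.Agent.P372.H337

open Vale.Agent.P372.H897 (Ker ap kt pk SF SD UN HM)

section flip

variable {D : Type} [Fintype D] [DecidableEq D]

/-- the linear map of a kernel -/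
def lin (t : Ker D) : Matrix D D ℂ →ₗ[ℂ] Matrix D D ℂ where
  toFun := ap t
  map_add' := H897.ap_add t
  map_smul' := H897.ap_smul t

theorem isFlip {t : Ker D} (h1 : SF t) (h2 : SD t) (h3 : UN t) (h4 : HM t) :
    H405.IsFlip (lin t) where
  trace := fun X => H897.trace_preserving h2 h3 X
  one := h3.one
  herm := fun X => h4.conj X
  dual := fun X Y => h2.trace X Y
  block := fun X C Y h => by
    have h5 := H897.ap_blocks h1.choi h
    rwa [h4.conj] at h5
  co := fun Y => h1.coSchwarz Y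

end flip

section merge

variable {A B : Type} [Fintype A] [DecidableEq A] [Fintype B] [DecidableEq B]

theorem kr_prod (t : Bool) (p c : (A × B) × (A × B)) :
    kr (D := A × B) t p c = kr (D := A) t (p.1.1, p.2.1) (c.1.1, c.2.1) *
      kr (D := B) t (p.1.2, p.2.2) (c.1.2, c.2.2) := by
  obtain ⟨⟨p1, p2⟩, ⟨q1, q2⟩⟩ := p
  obtain ⟨⟨r1, r2⟩, ⟨s1, s2⟩⟩ := c
  cases t
  · simp only [kr, Bool.false_eq_true, if_false, rs, rv, tv, Fintype.card_prod, Nat.cast_mul,
      mul_inv, Prod.mk.injEq, Matrix.one_apply]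
    by_cases h1 : p1 = q1 <;> by_cases h2 : p2 = q2 <;> by_cases h3 : s1 = r1 <;>
      by_cases h4 : s2 = r2 <;> simp [h1, h2, h3, h4]
  · simp only [kr, if_true, Matrix.one_apply, Prod.mk.injEq]
    by_cases h1 : p1 = r1 <;> by_cases h2 : p2 = r2 <;> by_cases h3 : q1 = s1 <;>
      by_cases h4 : q2 = s2 <;> simp [h1, h2, h3, h4]

theorem mk_prod (tA : Ker A) (tB : Ker B) (p c : (A × B) × (A × B)) :
    mk (kt tA tB) p c = mk tA (p.1.1, p.2.1) (c.1.1, c.2.1) *
      mk tB (p.1.2, p.2.2) (c.1.2, c.2.2) := rfl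

theorem pt_psd {ι D : Type} [Fintype ι] [DecidableEq ι] [Fintype D] [DecidableEq D]
    {K : ι → Matrix D D ℂ} (h : ∀ i, (K i).PosSemidef) : (pt K).PosSemidef :=
  piT_posSemidef h

theorem trace_submatrix {I J : Type} [Fintype I] [Fintype J] (M : Matrix J J ℂ) (e : I ≃ J) :
    (M.submatrix e e).trace = M.trace := by
  simp only [Matrix.trace, Matrix.diag, Matrix.submatrix_apply]
  exact Equiv.sum_comp e (fun j => M j j)

theorem trace_kr2 {ι : Type} [Fintype ι] [DecidableEq ι] (M : Matrix (ι → A × B) (ι → A × B) ℂ)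
    (N : Matrix ((ι → A) × (ι → B)) ((ι → A) × (ι → B)) ℂ) :
    (M.submatrix (ei ι A B).symm (ei ι A B).symm * N).trace =
      (M * N.submatrix (ei ι A B) (ei ι A B)).trace := by
  rw [← trace_submatrix (M * N.submatrix (ei ι A B) (ei ι A B)) (ei ι A B).symm,
    ← Matrix.submatrix_mul_equiv (e₂ := (ei ι A B).symm)]
  congr 2

section sums

variable {D : Type} [Fintype D] [DecidableEq D] {n : ℕ}

theorem sum_kr [Nonempty D] (Rh : Matrix D D ℂ) (M : Matrix (Fin n → D) (Fin n → D) ℂ) :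
    ∑ t : Fin n → Bool, ((∏ i, kp (t i) : ℝ) : ℂ) *
      (pt (fun i => kv Rh (t i)) * app (fun i => kr (t i)) M).trace =
        (pt (fun _ => (2/3 : ℂ) • 1 + (1/3 : ℂ) • Rh) * M).trace := by
  have h1 : ∀ t : Fin n → Bool, ((∏ i, kp (t i) : ℝ) : ℂ) *
      (pt (fun i => kv Rh (t i)) * app (fun i => kr (t i)) M).trace =
      fn (fun i => ((kp (t i) : ℝ) : ℂ) • (tv (kv Rh (t i)) ᵥ* kr (t i))) M := by
    intro t
    rw [trace_pt_mul, fn_app, fn_smul]
    push_cast
    rfl
  rw [Finset.sum_congr rfl fun t _ => h1 t,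
    ← fn_sum (σ := fun _ => Bool) (fun i t => ((kp t : ℝ) : ℂ) • (tv (kv Rh t) ᵥ* kr t)),
    trace_pt_mul]
  congr 1
  funext i
  rw [Fintype.sum_bool]
  simp only [kp, kv, kr, if_true, Bool.false_eq_true, if_false, Matrix.vecMul_one, rs,
    vecMul_one_rv, tv_add, tv_smul]
  rw [add_comm]
  congr 2 <;> push_cast <;> norm_num

theorem sum_ka (G : Matrix D D ℂ) (M : Matrix (Fin n → D) (Fin n → D) ℂ) [Nonempty D] :
    ∑ u : Fin n → Bool, ((∏ i, kp (u i) : ℝ) : ℂ) * (app (fun i => ka G (u i)) M).trace =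
        (pt (fun _ => (2/3 : ℂ) • 1 + (1/3 : ℂ) • G) * M).trace := by
  have h1 : ∀ u : Fin n → Bool, ((∏ i, kp (u i) : ℝ) : ℂ) *
      (app (fun i => ka G (u i)) M).trace =
      fn (fun i => ((kp (u i) : ℝ) : ℂ) • (tv 1 ᵥ* ka G (u i))) M := by
    intro u
    have h2 := trace_pt_mul (fun _ : Fin n => (1 : Matrix D D ℂ)) (app (fun i => ka G (u i)) M)
    rw [pt_one, one_mul] at h2
    rw [h2, fn_app, fn_smul]
    push_cast
    rfl
  rw [Finset.sum_congr rfl fun u _ => h1 u,
    ← fn_sum (σ := fun _ => Bool) (fun i u => ((kp u : ℝ) : ℂ) • (tv 1 ᵥ* ka G u)),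
    trace_pt_mul]
  congr 1
  funext i
  rw [Fintype.sum_bool]
  simp only [kp, ka, if_true, Bool.false_eq_true, if_false, Matrix.vecMul_one, rs,
    vecMul_one_rv, tv_add, tv_smul]
  rw [add_comm]
  congr 2 <;> push_cast <;> norm_num

theorem noise_trace {t : Ker D} (st : SD t) (V : Matrix D D ℂ)
    (M : Matrix (Fin n → D) (Fin n → D) ℂ) :
    (pt (fun _ => V) * ap (pk t) M).trace = (pt (fun _ => ap t V) * M).trace := by
  rw [← app_mk, trace_pt_mul, fn_app, trace_pt_mul]
  simp only [vecMul_mk st]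

theorem kp_nonneg (t : Bool) : 0 ≤ kp t := by
  cases t <;> norm_num [kp]

end sums

/-- psd case with a positive definite operator -/
theorem merge_pd [Nonempty A] [Nonempty B] {tA : Ker A} {tB : Ker B}
    (fA : SF tA) (sA : SD tA) (uA : UN tA) (mA : HM tA)
    (fB : SF tB) (sB : SD tB) (uB : UN tB) (mB : HM tB)
    {Rh : Matrix (A × B) (A × B) ℂ} (h0 : Rh.PosDef) (h2 : ((2 : ℂ) • 1 - Rh).PosSemidef)
    (n : ℕ) :
    H740.CornerLin (tpow n ((2/3 : ℂ) • 1 + (1/3 : ℂ) • ap (kt tA tB) Rh)) := by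
  classical
  intro a₀ a₁ b₀ b₁ C μ ha₀ ha₁ hb₀ hb₁ hC
  set t : Ker (A × B) := kt tA tB with ht
  have ft : SF t := fA.kt fB
  have st : SD t := sA.kt sB
  have ut : UN t := uA.kt uB
  have mt : HM t := mA.kt mB
  set G : Matrix (A × B) (A × B) ℂ := ap t Rh with hG
  have hGd : G.PosDef := (isFlip ft st ut mt).posDef h0
  have hfl : H405.IsFlip (lin (pk (ι := Fin n) t)) := isFlip ft.pk st.pk ut.pk mt.pk
  set X : Matrix (Fin n → A × B) (Fin n → A × B) ℂ := kr2 a₀ b₀ with hX
  set Y : Matrix (Fin n → A × B) (Fin n → A × B) ℂ := kr2 a₁ b₁ with hY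
  set W : Matrix (Fin n → A × B) (Fin n → A × B) ℂ :=
    C.submatrix (ei (Fin n) A B) (ei (Fin n) A B) with hW
  have hXd : X.PosDef := (ha₀.kronecker hb₀).submatrix (ei (Fin n) A B).injective
  have hblk : (fromBlocks X W Wᴴ Y).PosSemidef := by
    have h1 := hC.submatrix (Sum.map (ei (Fin n) A B) (ei (Fin n) A B))
    convert h1 using 1
    ext (p | p) (q | q) <;> rfl
  -- the maps
  have hg : ∀ (u : Fin n → Bool) (i : Fin n), CP (ka G (u i)) := by
    intro u i
    cases u i
    · simpa [ka] using CP_one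
    · simpa [ka] using CP_rs hGd.posSemidef
  have hg1 : ∀ u : Fin n → Bool, (app (fun i => ka G (u i)) 1).PosDef := by
    intro u
    rw [← pt_one, app_pt]
    have h1 : (fun i => si (ka G (u i)) (1 : Matrix (A × B) (A × B) ℂ)) =
        fun i => (if u i then (G.trace * ((Fintype.card (A × B) : ℂ))⁻¹) else 1) •
          (1 : Matrix (A × B) (A × B) ℂ) := by
      funext i
      cases u i
      · simp [ka, si_one]
      · simp [ka, si_rs]
    rw [h1, pt_smul_one]
    refine PosDef.one.smul (Finset.prod_pos fun i _ => ?_)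
    cases u i
    · simp
    · simp only [if_true]
      refine mul_pos hGd.trace_pos ?_
      have h5 : ((Fintype.card (A × B) : ℂ))⁻¹ = (((Fintype.card (A × B) : ℝ)⁻¹ : ℝ) : ℂ) := by
        push_cast
        rfl
      rw [h5]
      have h6 : (0 : ℝ) < (Fintype.card (A × B) : ℝ)⁻¹ :=
        inv_pos.mpr (Nat.cast_pos.mpr Fintype.card_pos)
      exact_mod_cast h6
  -- start
  have hst : ∀ u : Fin n → Bool, ∃ Z : Matrix (Fin n → A × B) (Fin n → A × B) ℂ,
      Z.IsHermitian ∧ (fromBlocks (app (fun i => ka Rh (u i)) (ap (pk t) X)) Z Z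
        (app (fun i => ka Rh (u i)) (ap (pk t) Y))).PosSemidef ∧
      4 * μ * (app (fun i => ka G (u i)) W).trace.re -
        2 * μ ^ 2 * ((app (fun i => ka G (u i)) X).trace.re +
          (app (fun i => ka G (u i)) Y).trace.re) ≤ Z.trace.re := by
    intro u
    have hcomm : ∀ M : Matrix (Fin n → A × B) (Fin n → A × B) ℂ,
        app (fun i => ka Rh (u i)) (ap (pk t) M) = ap (pk t) (app (fun i => ka G (u i)) M) := by
      intro M
      rw [← app_mk, ← app_mk, app_app, app_app]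
      simp only [ka_mk st ut, hG]
    have h3 := block_app (fun i => ka G (u i)) (hg u) hblk
    have h4 : app (fun i => ka G (u i)) Wᴴ = (app (fun i => ka G (u i)) W)ᴴ := by
      obtain ⟨κ, hκ, L, hL⟩ := app_kraus _ (hg u)
      rw [hL, hL, conjTranspose_sum]
      refine Finset.sum_congr rfl fun k _ => ?_
      rw [conjTranspose_mul, conjTranspose_mul, conjTranspose_conjTranspose, Matrix.mul_assoc]
    rw [h4] at h3
    obtain ⟨Z, hZ1, hZ2, hZ3⟩ := H405.start hfl (posDef_app _ (hg u) (hg1 u) hXd) h3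
    refine ⟨Z, hZ1, ?_, hZ3 μ⟩
    rw [hcomm, hcomm]
    exact hZ2
  choose Z hZ1 hZ2 hZ3 using hst
  obtain ⟨Z', hZ'1, hZ'2, hZ'3⟩ := key Rh h2 (ap (pk t) X) (ap (pk t) Y) Z hZ1 hZ2
  -- real form
  have hre : ∀ (f : (Fin n → Bool) → ℂ), (∑ u : Fin n → Bool, ((∏ i, kp (u i) : ℝ) : ℂ) * f u).re =
      ∑ u : Fin n → Bool, (∏ i, kp (u i)) * (f u).re := by
    intro f
    rw [Complex.re_sum]
    exact Finset.sum_congr rfl fun u _ => Complex.re_ofReal_mul _ _
  have hw : ∀ u : Fin n → Bool, 0 ≤ ∏ i, kp (u i) := fun u => Finset.prod_nonneg fun i _ => kp_nonneg _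
  have e1 : ∑ t : Fin n → Bool, (∏ i, kp (t i)) * (pt (fun i => kv Rh (t i)) * Z' t).trace.re =
      ∑ u : Fin n → Bool, (∏ i, kp (u i)) * (Z u).trace.re := by
    rw [← hre, ← hre, hZ'3]
  set R : Matrix (A × B) (A × B) ℂ := (2/3 : ℂ) • 1 + (1/3 : ℂ) • G with hR
  have hRR : ap t ((2/3 : ℂ) • 1 + (1/3 : ℂ) • Rh) = R := by
    rw [H897.ap_add, H897.ap_smul, H897.ap_smul, ut.one]
  have e2 : ∀ M : Matrix (Fin n → A × B) (Fin n → A × B) ℂ,
      ∑ u : Fin n → Bool, (∏ i, kp (u i)) * (app (fun i => ka G (u i)) M).trace.re =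
        (pt (fun _ => R) * M).trace.re := by
    intro M
    rw [← hre, sum_ka]
  have hT : ∀ N : Matrix ((Fin n → A) × (Fin n → B)) ((Fin n → A) × (Fin n → B)) ℂ,
      (tpow n R * N).trace = (pt (fun _ : Fin n => R) *
        N.submatrix (ei (Fin n) A B) (ei (Fin n) A B)).trace := by
    intro N
    rw [← trace_kr2]
    rfl
  -- lower bound
  have lower : 4 * μ * (tpow n R * C).trace.re -
      2 * μ ^ 2 * ((tpow n R * (a₀ ⊗ₖ b₀)).trace.re + (tpow n R * (a₁ ⊗ₖ b₁)).trace.re) ≤
      ∑ u : Fin n → Bool, (∏ i, kp (u i)) * (Z u).trace.re := by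
    rw [hT, hT, hT, ← e2, ← e2, ← e2, Finset.mul_sum, ← Finset.sum_add_distrib, Finset.mul_sum,
      ← Finset.sum_sub_distrib]
    refine Finset.sum_le_sum fun u _ => ?_
    have h5 := mul_le_mul_of_nonneg_left (hZ3 u) (hw u)
    refine le_trans (le_of_eq ?_) h5
    simp only [hW, hX, hY, kr2]
    ring
  refine lower.trans ?_
  rw [← e1]
  -- upper bound
  have hkr : ∀ (s : Fin n → Bool) (a : Matrix (Fin n → A) (Fin n → A) ℂ)
      (b : Matrix (Fin n → B) (Fin n → B) ℂ),
      app (fun i => kr (s i)) (ap (pk t) (kr2 a b)) =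
        kr2 (app (fun i => kr (s i)) (app (fun _ => mk tA) a))
          (app (fun i => kr (s i)) (app (fun _ => mk tB) b)) := by
    intro s a b
    rw [← app_mk, app_kr2 _ (fun _ => mk tA) (fun _ => mk tB) (fun i p c => mk_prod tA tB p c),
      app_kr2 _ (fun i => kr (s i)) (fun i => kr (s i)) (fun i p c => kr_prod (s i) p c)]
  have hcpA : ∀ (s : Fin n → Bool) {a : Matrix (Fin n → A) (Fin n → A) ℂ}, a.PosSemidef →
      (app (fun i => kr (s i)) (app (fun _ => mk tA) a)).PosSemidef := by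
    intro s a ha
    refine posSemidef_app _ (fun i => ?_) ?_
    · cases s i
      · simpa [kr] using CP_rs PosSemidef.one
      · simpa [kr] using CP_one
    · rw [app_mk]
      exact H897.ap_psd fA.pk.choi ha
  have hcpB : ∀ (s : Fin n → Bool) {a : Matrix (Fin n → B) (Fin n → B) ℂ}, a.PosSemidef →
      (app (fun i => kr (s i)) (app (fun _ => mk tB) a)).PosSemidef := by
    intro s a ha
    refine posSemidef_app _ (fun i => ?_) ?_
    · cases s i
      · simpa [kr] using CP_rs PosSemidef.one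
      · simpa [kr] using CP_one
    · rw [app_mk]
      exact H897.ap_psd fB.pk.choi ha
  have hcore : ∀ s : Fin n → Bool, 2 * (pt (fun i => kv Rh (s i)) * Z' s).trace.re ≤
      (pt (fun i => kv Rh (s i)) * app (fun i => kr (s i)) (ap (pk t) (kr2 a₀ b₁))).trace.re +
      (pt (fun i => kv Rh (s i)) * app (fun i => kr (s i)) (ap (pk t) (kr2 a₁ b₀))).trace.re := by
    intro s
    have hM : ((pt (fun i => kv Rh (s i))).submatrix (ei (Fin n) A B).symm
        (ei (Fin n) A B).symm).PosSemidef := by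
      refine PosSemidef.submatrix (pt_psd fun i => ?_) _
      cases s i
      · simpa [kv] using PosSemidef.one
      · simpa [kv] using h0.posSemidef
    have hH : ((Z' s).submatrix (ei (Fin n) A B).symm (ei (Fin n) A B).symm).IsHermitian :=
      (hZ'1 s).submatrix _
    have hb := (hZ'2 s).submatrix (Sum.map (ei (Fin n) A B).symm (ei (Fin n) A B).symm)
    rw [hX, hY, hkr, hkr] at hb
    have hb' : (fromBlocks
        ((app (fun i => kr (s i)) (app (fun _ => mk tA) a₀)) ⊗ₖ
          (app (fun i => kr (s i)) (app (fun _ => mk tB) b₀)))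
        ((Z' s).submatrix (ei (Fin n) A B).symm (ei (Fin n) A B).symm)
        ((Z' s).submatrix (ei (Fin n) A B).symm (ei (Fin n) A B).symm)
        ((app (fun i => kr (s i)) (app (fun _ => mk tA) a₁)) ⊗ₖ
          (app (fun i => kr (s i)) (app (fun _ => mk tB) b₁)))).PosSemidef := by
      convert hb using 1
      ext (p | p) (q | q) <;> rfl
    have h6 := Swap.core_lin (hcpA s ha₁.posSemidef) (hcpA s ha₀.posSemidef)
      (hcpB s hb₁.posSemidef) (hcpB s hb₀.posSemidef) hH hb' hM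
    rw [trace_kr2, trace_kr2, trace_kr2] at h6
    rw [hkr, hkr]
    exact h6
  have h7 : ∀ (a : Matrix (Fin n → A) (Fin n → A) ℂ) (b : Matrix (Fin n → B) (Fin n → B) ℂ),
      ∑ s : Fin n → Bool, (∏ i, kp (s i)) * (pt (fun i => kv Rh (s i)) *
        app (fun i => kr (s i)) (ap (pk t) (kr2 a b))).trace.re =
          (tpow n R * (a ⊗ₖ b)).trace.re := by
    intro a b
    rw [← hre, sum_kr, noise_trace st, hRR, hT]
    rfl
  rw [← h7, ← h7, ← Finset.sum_add_distrib, Finset.sum_div]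
  refine Finset.sum_le_sum fun s _ => ?_
  have h8 := mul_le_mul_of_nonneg_left (hcore s) (hw s)
  linarith

end merge

end Vale.Agent.P372.H337
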