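import Vale.Agent.P372.H337.Merge

/-! The merge for positive semidefinite operators. -/

open Matrix Kronecker Filter Topology
open scoped ComplexOrder MatrixOrder

set_option linter.unusedSectionVars false

namespace Vale.Agent.P372.H337

open Vale.Agent.P372.H897 (Ker ap kt pk SF SD UN HM)

variable {A B : Type} [Fintype A] [DecidableEq A] [Fintype B] [DecidableEq B]

theorem continuous_tpow (n : ℕ) {R : ℝ → Matrix (A × B) (A × B) ℂ} (hR : Continuous R)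
    (N : Matrix ((Fin n → A) × (Fin n → B)) ((Fin n → A) × (Fin n → B)) ℂ) :
    Continuous fun δ : ℝ => (tpow n (R δ) * N).trace.re := by
  refine Complex.continuous_re.comp ?_
  simp only [Matrix.trace, Matrix.diag, Matrix.mul_apply, tpow]
  refine continuous_finsetSum _ fun p _ => continuous_finsetSum _ fun q _ => ?_
  refine Continuous.mul (continuous_finsetProd _ fun i _ => ?_) continuous_const
  exact (hR.matrix_elem _ _)

/-- **The corner inequality for all numbers of copies.** -/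
theorem merge [Nonempty A] [Nonempty B] {tA : Ker A} {tB : Ker B}
    (fA : SF tA) (sA : SD tA) (uA : UN tA) (mA : HM tA)
    (fB : SF tB) (sB : SD tB) (uB : UN tB) (mB : HM tB)
    {Rh : Matrix (A × B) (A × B) ℂ} (h0 : Rh.PosSemidef) (h2 : ((2 : ℂ) • 1 - Rh).PosSemidef)
    (n : ℕ) :
    H740.CornerLin (tpow n ((2/3 : ℂ) • 1 + (1/3 : ℂ) • ap (kt tA tB) Rh)) := by
  intro a₀ a₁ b₀ b₁ C μ ha₀ ha₁ hb₀ hb₁ hC
  set Rd : ℝ → Matrix (A × B) (A × B) ℂ := fun δ =>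
    (2/3 : ℂ) • 1 + (1/3 : ℂ) • (((1 - δ : ℝ) : ℂ) • ap (kt tA tB) Rh + (δ : ℂ) • 1) with hRd
  have hc1 : Continuous fun δ : ℝ => ((1 - δ : ℝ) : ℂ) • ap (kt tA tB) Rh :=
    (Complex.continuous_ofReal.comp (continuous_const.sub continuous_id)).smul continuous_const
  have hc2 : Continuous fun δ : ℝ => (δ : ℂ) • (1 : Matrix (A × B) (A × B) ℂ) :=
    Complex.continuous_ofReal.smul continuous_const
  have hc3 : Continuous fun δ : ℝ => (1/3 : ℂ) • (((1 - δ : ℝ) : ℂ) • ap (kt tA tB) Rh +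
      (δ : ℂ) • (1 : Matrix (A × B) (A × B) ℂ)) := (hc1.add hc2).const_smul (1/3 : ℂ)
  have hc : Continuous Rd := continuous_const.add hc3
  have hR0 : Rd 0 = (2/3 : ℂ) • 1 + (1/3 : ℂ) • ap (kt tA tB) Rh := by
    simp [hRd]
  have key : ∀ δ : ℝ, 0 < δ → δ < 1 →
      4 * μ * (tpow n (Rd δ) * C).trace.re -
        2 * μ ^ 2 * ((tpow n (Rd δ) * (a₀ ⊗ₖ b₀)).trace.re +
          (tpow n (Rd δ) * (a₁ ⊗ₖ b₁)).trace.re) ≤
      ((tpow n (Rd δ) * (a₀ ⊗ₖ b₁)).trace.re + (tpow n (Rd δ) * (a₁ ⊗ₖ b₀)).trace.re) / 2 := by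
    intro δ hδ hδ1
    have e1 : (((1 - δ : ℝ) : ℂ) • Rh + (δ : ℂ) • (1 : Matrix (A × B) (A × B) ℂ)).PosDef := by
      refine Matrix.PosDef.posSemidef_add (h0.smul ?_) (PosDef.one.smul ?_)
      · have : (0 : ℝ) ≤ 1 - δ := by linarith
        exact_mod_cast this
      · exact_mod_cast hδ
    have e2 : ((2 : ℂ) • 1 - (((1 - δ : ℝ) : ℂ) • Rh + (δ : ℂ) •
        (1 : Matrix (A × B) (A × B) ℂ))).PosSemidef := by
      have e3 : (2 : ℂ) • 1 - (((1 - δ : ℝ) : ℂ) • Rh + (δ : ℂ) •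
        (1 : Matrix (A × B) (A × B) ℂ)) = ((1 - δ : ℝ) : ℂ) • ((2 : ℂ) • 1 - Rh) +
          (δ : ℂ) • (1 : Matrix (A × B) (A × B) ℂ) := by
        push_cast
        module
      rw [e3]
      refine (h2.smul ?_).add (PosSemidef.one.smul ?_)
      · have : (0 : ℝ) ≤ 1 - δ := by linarith
        exact_mod_cast this
      · exact_mod_cast hδ.le
    have e4 := merge_pd fA sA uA mA fB sB uB mB e1 e2 n a₀ a₁ b₀ b₁ C μ ha₀ ha₁ hb₀ hb₁ hC
    have e5 : ap (kt tA tB) (((1 - δ : ℝ) : ℂ) • Rh + (δ : ℂ) •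
        (1 : Matrix (A × B) (A × B) ℂ)) =
          ((1 - δ : ℝ) : ℂ) • ap (kt tA tB) Rh + (δ : ℂ) • 1 := by
      rw [H897.ap_add, H897.ap_smul, H897.ap_smul, (uA.kt uB).one]
    rw [e5] at e4
    exact e4
  have hl : Tendsto (fun δ : ℝ => 4 * μ * (tpow n (Rd δ) * C).trace.re -
        2 * μ ^ 2 * ((tpow n (Rd δ) * (a₀ ⊗ₖ b₀)).trace.re +
          (tpow n (Rd δ) * (a₁ ⊗ₖ b₁)).trace.re)) (𝓝[>] 0)
      (𝓝 (4 * μ * (tpow n (Rd 0) * C).trace.re -
        2 * μ ^ 2 * ((tpow n (Rd 0) * (a₀ ⊗ₖ b₀)).trace.re +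
          (tpow n (Rd 0) * (a₁ ⊗ₖ b₁)).trace.re))) := by
    refine Tendsto.mono_left (Continuous.tendsto ?_ 0) nhdsWithin_le_nhds
    exact (continuous_const.mul (continuous_tpow n hc _)).sub (continuous_const.mul
      ((continuous_tpow n hc _).add (continuous_tpow n hc _)))
  have hr : Tendsto (fun δ : ℝ => ((tpow n (Rd δ) * (a₀ ⊗ₖ b₁)).trace.re +
      (tpow n (Rd δ) * (a₁ ⊗ₖ b₀)).trace.re) / 2) (𝓝[>] 0)
      (𝓝 (((tpow n (Rd 0) * (a₀ ⊗ₖ b₁)).trace.re +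
        (tpow n (Rd 0) * (a₁ ⊗ₖ b₀)).trace.re) / 2)) := by
    refine Tendsto.mono_left (Continuous.tendsto ?_ 0) nhdsWithin_le_nhds
    exact ((continuous_tpow n hc _).add (continuous_tpow n hc _)).div_const _
  rw [← hR0]
  refine le_of_tendsto_of_tendsto hl hr ?_
  have h1 : ∀ᶠ δ : ℝ in 𝓝[>] 0, δ < 1 :=
    Filter.Eventually.filter_mono nhdsWithin_le_nhds (gt_mem_nhds one_pos)
  filter_upwards [h1, self_mem_nhdsWithin] with δ h3 h4
  exact key δ h4 h3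

end Vale.Agent.P372.H337
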