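import Vale.Agent.P372.H337.Key
import Vale.Agent.P372.H897.CliffT

/-! The noise at every site, products of two sides. -/

open Matrix Kronecker
open scoped ComplexOrder MatrixOrder

set_option linter.unusedSectionVars false

namespace Vale.Agent.P372.H337

open Vale.Agent.P372.H897 (Ker ap kt pk SF SD UN HM)

variable {ι D : Type} [Fintype ι] [DecidableEq ι] [Fintype D] [DecidableEq D]

/-- the superoperator of a kernel -/
def mk (t : Ker D) : Matrix (D × D) (D × D) ℂ := fun p c => t c.1 c.2 p.1 p.2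

theorem app_mk (t : Ker D) (M : Matrix (ι → D) (ι → D) ℂ) :
    app (fun _ => mk t) M = ap (pk t) M := by
  ext f g
  simp only [app, mk, ap, pk]
  rw [sum_pair (fun p q => (∏ i, t (p i) (q i) (f i) (g i)) * M p q)]
  exact Finset.sum_congr rfl fun p _ => Finset.sum_congr rfl fun q _ => mul_comm _ _

theorem vecMul_mk {t : Ker D} (h : SD t) (G : Matrix D D ℂ) : tv G ᵥ* mk t = tv (ap t G) := by
  funext c
  simp only [Matrix.vecMul, dotProduct, mk, tv, ap]
  rw [Fintype.sum_prod_type, Finset.sum_comm]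
  exact Finset.sum_congr rfl fun x _ => Finset.sum_congr rfl fun y _ => by rw [h c.1 c.2 y x]

theorem mk_mul_rv {t : Ker D} (h : UN t) (v : D × D → ℂ) : mk t * rv v = rv v := by
  ext p q
  simp only [Matrix.mul_apply, mk, rv]
  rw [Fintype.sum_prod_type]
  have h1 : ∀ x : D, ∑ y : D, t x y p.1 p.2 * ((if (x, y).1 = (x, y).2 then
      ((Fintype.card D : ℂ))⁻¹ else 0) * v q) =
        t x x p.1 p.2 * (((Fintype.card D : ℂ))⁻¹ * v q) := by
    intro x
    rw [Finset.sum_eq_single x]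
    · simp
    · intro y _ hy
      simp [Ne.symm hy]
    · simp
  rw [Finset.sum_congr rfl fun x _ => h1 x, ← Finset.sum_mul, h]
  by_cases hp : p.1 = p.2 <;> simp [hp]

/-- `A_u S = S g_u`, one site -/
theorem ka_mk {t : Ker D} (h : SD t) (h' : UN t) (Rh : Matrix D D ℂ) (u : Bool) :
    ka Rh u * mk t = mk t * ka (ap t Rh) u := by
  cases u
  · simp [ka]
  · simp only [ka, if_true, rs]
    rw [rv_mul, vecMul_mk h, mk_mul_rv h']

/-- image of a product operator -/
def si (Φ : Matrix (D × D) (D × D) ℂ) (K : Matrix D D ℂ) : Matrix D D ℂ :=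
  fun p q => ∑ c : D × D, Φ (p, q) c * K c.1 c.2

theorem app_pt (Φ : ι → Matrix (D × D) (D × D) ℂ) (K : ι → Matrix D D ℂ) :
    app Φ (pt K) = pt (fun i => si (Φ i) (K i)) := by
  ext f g
  simp only [app, pt, si]
  rw [Finset.prod_univ_sum, Fintype.piFinset_univ]
  exact Finset.sum_congr rfl fun h _ => by rw [Finset.prod_mul_distrib]

theorem pt_one : pt (fun _ : ι => (1 : Matrix D D ℂ)) = 1 := by
  ext f g
  by_cases hfg : f = g
  · subst hfg
    simp [pt]
  · rw [Matrix.one_apply_ne hfg]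
    obtain ⟨i, hi⟩ := Function.ne_iff.mp hfg
    exact Finset.prod_eq_zero (Finset.mem_univ i) (Matrix.one_apply_ne hi)

theorem pt_smul_one (c : ι → ℂ) : pt (fun i => c i • (1 : Matrix D D ℂ)) = (∏ i, c i) • 1 := by
  rw [← pt_one]
  ext f g
  simp only [pt, Matrix.smul_apply, smul_eq_mul, Finset.prod_mul_distrib]

theorem si_one (K : Matrix D D ℂ) : si 1 K = K := by
  ext p q
  simp only [si]
  rw [Finset.sum_eq_single (p, q)]
  · simp
  · intro c _ hc
    rw [Matrix.one_apply_ne (Ne.symm hc), zero_mul]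
  · simp

theorem si_rs (G K : Matrix D D ℂ) :
    si (rs G) K = ((G * K).trace * ((Fintype.card D : ℂ))⁻¹) • (1 : Matrix D D ℂ) := by
  ext p q
  simp only [si, rs, rv, tv, Matrix.smul_apply, smul_eq_mul, Matrix.trace, Matrix.diag,
    Matrix.mul_apply]
  rw [Fintype.sum_prod_type, Finset.sum_comm]
  by_cases hpq : p = q
  · subst hpq
    simp only [if_true, Matrix.one_apply_eq, mul_one, Finset.sum_mul]
    exact Finset.sum_congr rfl fun x _ => Finset.sum_congr rfl fun y _ => by ring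
  · simp [hpq]

/-- positive definiteness is preserved -/
theorem posDef_app (Φ : ι → Matrix (D × D) (D × D) ℂ) (h : ∀ i, CP (Φ i))
    (h1 : (app Φ 1).PosDef) {X : Matrix (ι → D) (ι → D) ℂ} (hX : X.PosDef) :
    (app Φ X).PosDef := by
  obtain ⟨κ, hκ, L, hL⟩ := app_kraus Φ h
  refine Matrix.PosDef.of_dotProduct_mulVec_pos (isHermitian_app Φ h hX.isHermitian) fun v hv => ?_
  have h2 : ∀ M : Matrix (ι → D) (ι → D) ℂ, star v ⬝ᵥ (app Φ M *ᵥ v) =
      ∑ k, star ((L k)ᴴ *ᵥ v) ⬝ᵥ (M *ᵥ ((L k)ᴴ *ᵥ v)) := by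
    intro M
    rw [hL, Matrix.sum_mulVec, dotProduct_sum]
    refine Finset.sum_congr rfl fun k _ => ?_
    rw [Matrix.mul_assoc, ← Matrix.mulVec_mulVec, ← Matrix.mulVec_mulVec, Matrix.dotProduct_mulVec,
      Matrix.star_mulVec, conjTranspose_conjTranspose]
  rw [h2]
  have h3 : ∃ k, (L k)ᴴ *ᵥ v ≠ 0 := by
    by_contra hc
    push Not at hc
    have h4 := h1.dotProduct_mulVec_pos hv
    rw [h2, Finset.sum_eq_zero] at h4
    · exact lt_irrefl _ h4
    · intro k _
      rw [hc k]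
      simp
  obtain ⟨k, hk⟩ := h3
  refine Finset.sum_pos' (fun j _ => hX.posSemidef.dotProduct_mulVec_nonneg _)
    ⟨k, Finset.mem_univ k, hX.dotProduct_mulVec_pos hk⟩

section two

variable {A B : Type} [Fintype A] [DecidableEq A] [Fintype B] [DecidableEq B]

/-- the index change -/
abbrev ei (ι A B : Type) : (ι → A × B) ≃ (ι → A) × (ι → B) :=
  Equiv.arrowProdEquivProdArrow ι (fun _ => A) (fun _ => B)

/-- tensor product on the sites -/
def kr2 (a : Matrix (ι → A) (ι → A) ℂ) (b : Matrix (ι → B) (ι → B) ℂ) :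
    Matrix (ι → A × B) (ι → A × B) ℂ := (a ⊗ₖ b).submatrix (ei ι A B) (ei ι A B)

theorem app_kr2 (Φ : ι → Matrix ((A × B) × (A × B)) ((A × B) × (A × B)) ℂ)
    (ΦA : ι → Matrix (A × A) (A × A) ℂ) (ΦB : ι → Matrix (B × B) (B × B) ℂ)
    (h : ∀ i p c, Φ i p c = ΦA i (p.1.1, p.2.1) (c.1.1, c.2.1) * ΦB i (p.1.2, p.2.2) (c.1.2, c.2.2))
    (a : Matrix (ι → A) (ι → A) ℂ) (b : Matrix (ι → B) (ι → B) ℂ) :
    app Φ (kr2 a b) = kr2 (app ΦA a) (app ΦB b) := by
  ext f g
  simp only [app, kr2, Matrix.submatrix_apply, Matrix.kroneckerMap_apply, h]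
  rw [Finset.sum_mul_sum, ← Fintype.sum_prod_type']
  let e : (ι → (A × B) × (A × B)) ≃ (ι → A × A) × (ι → B × B) :=
    { toFun := fun h => (fun i => ((h i).1.1, (h i).2.1), fun i => ((h i).1.2, (h i).2.2))
      invFun := fun h => fun i => (((h.1 i).1, (h.2 i).1), ((h.1 i).2, (h.2 i).2))
      left_inv := fun h => rfl
      right_inv := fun h => rfl }
  refine Fintype.sum_equiv e _ _ fun h => ?_
  simp only [Finset.prod_mul_distrib, e, Equiv.coe_fn_mk, ei, Equiv.arrowProdEquivProdArrow]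
  ring

end two

end Vale.Agent.P372.H337
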